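import Vale.Agent.P233.Bd3.B1
import Vale.Agent.P233.Bd3.B5
import Vale.Agent.P233.Bd3.B9
import Mathlib.MeasureTheory.Integral.DivergenceTheorem

/-! P233, block T0 (helper837): truncation calculus in a Dirichlet form with carre du champ.
Chain rule for Lipschitz functions with a Baire-1 derivative, positive part, maximum, minimum,
`(f - l)₊`, clamps, locality on level sets. -/

set_option linter.all false

open MeasureTheory Filter Topology
open scoped ENNReal NNReal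

namespace Vale.Agent.P233

variable {M : Type*} [MeasurableSpace M] {m : Measure M} {C : Calc m}

namespace IsDir

/-- chain rule for limits of `C¹` functions with bounded derivatives -/
theorem chain_lim (hC : IsDir C) {f : M →ₘ[m] ℝ} (hf : f ∈ C.W) {φ φ' : ℕ → ℝ → ℝ} {Ψ ψ : ℝ → ℝ}
    {K : ℝ} (hφ' : ∀ n, Continuous (φ' n)) (hd : ∀ n t, HasDerivAt (φ n) (φ' n t) t)
    (h0 : ∀ n, φ n 0 = 0) (hK : ∀ n t, |φ' n t| ≤ K) (hΨ : Continuous Ψ)
    (hl : ∀ t, Tendsto (fun n => φ n t) atTop (𝓝 (Ψ t)))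
    (hl' : ∀ t, Tendsto (fun n => φ' n t) atTop (𝓝 (ψ t))) :
    AEEqFun.comp Ψ hΨ f ∈ C.W ∧
      ∀ g ∈ C.W, ∀ᵐ x ∂m, C.Γ (AEEqFun.comp Ψ hΨ f) g x = ψ (f x) * C.Γ f g x := by
  have hK0 : 0 ≤ K := (abs_nonneg _).trans (hK 0 0)
  have hf2 := hC.memLp f hf
  have hc : ∀ n, Continuous (φ n) := fun n =>
    continuous_iff_continuousAt.2 fun t => (hd n t).continuousAt
  have hch := fun n => hC.chain f hf (φ n) (φ' n) (hc n) (hφ' n) (hd n) (h0 n) ⟨K, hK n⟩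
  -- bound of `φ n`
  have hb : ∀ n t, |φ n t| ≤ K * |t| := by
    intro n t
    have := Convex.norm_image_sub_le_of_norm_hasDerivWithin_le (f := φ n) (f' := φ' n) (C := K)
      (s := Set.univ) (x := 0) (y := t) (fun x _ => (hd n x).hasDerivWithinAt)
      (fun x _ => by simpa using hK n x) convex_univ (Set.mem_univ _) (Set.mem_univ _)
    simpa [h0 n] using this
  have hbΨ : ∀ t, |Ψ t| ≤ K * |t| := fun t =>
    le_of_tendsto' ((hl t).abs) fun n => hb n t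
  have hbψ : ∀ t, |ψ t| ≤ K := fun t => le_of_tendsto' ((hl' t).abs) fun n => hK n t
  set u : ℕ → M →ₘ[m] ℝ := fun n => AEEqFun.comp (φ n) (hc n) f with hu
  set F : M →ₘ[m] ℝ := AEEqFun.comp Ψ hΨ f with hF
  have huW : ∀ n, u n ∈ C.W := fun n => (hch n).1
  have hux : ∀ᵐ x ∂m, ∀ n, u n x = φ n (f x) := by
    rw [ae_all_iff]
    intro n
    filter_upwards [AEEqFun.coeFn_comp _ (hc n) f] with x b1
    rw [b1, Function.comp_apply]
  have hFx : ∀ᵐ x ∂m, F x = Ψ (f x) := by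
    filter_upwards [AEEqFun.coeFn_comp _ hΨ f] with x b1
    rw [b1, Function.comp_apply]
  have hF2 : MemLp F 2 m := by
    refine mem_of_le (mem_smul K hf2) ?_
    filter_upwards [hFx, smul_ae f K] with x b1 b2
    rw [b1, b2, abs_mul, abs_of_nonneg hK0]
    exact hbΨ _
  -- `L²` convergence
  have lim2 : Tendsto (fun n => I ((u n - F) ^ 2)) atTop (𝓝 0) := by
    have : Tendsto (fun n => I ((u n - F) ^ 2)) atTop (𝓝 (I (0 : M →ₘ[m] ℝ))) := by
      refine I_tendsto_of_dominated (G := fun x => (2 * K) ^ 2 * f x ^ 2)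
        (((int_of_mem (mem_sq hf2)).congr (sq_ae f)).const_mul _) (fun n => ?_) ?_
      · filter_upwards [sq_ae (u n - F), sub_ae (u n) F, hux, hFx] with x b1 b2 b3 b4
        rw [b1, b2, b3 n, b4, abs_of_nonneg (sq_nonneg _), ← mul_pow, ← sq_abs, ← sq_abs (2 * K * f x)]
        refine pow_le_pow_left₀ (abs_nonneg _) ?_ 2
        have h1 := abs_sub (φ n (f x)) (Ψ (f x))
        have h2 := hb n (f x)
        have h3 := hbΨ (f x)
        rw [abs_mul, abs_mul, abs_two, abs_of_nonneg hK0]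
        linarith
      · have hall : ∀ᵐ x ∂m, ∀ n, ((u n - F) ^ 2 : M →ₘ[m] ℝ) x = (φ n (f x) - Ψ (f x)) ^ 2 := by
          rw [ae_all_iff]
          intro n
          filter_upwards [sq_ae (u n - F), sub_ae (u n) F, hux, hFx] with x b1 b2 b3 b4
          rw [b1, b2, b3 n, b4]
        filter_upwards [hall, zero_ae (M := M) (m := m)] with x b1 b2
        simp only [b1, b2]
        simpa using ((hl (f x)).sub_const (Ψ (f x))).pow 2
    rwa [I_zero] at this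
  -- energies of differences
  have hΓd : ∀ n k, ∀ᵐ x ∂m, C.Γ (u n - u k) (u n - u k) x
      = (φ' n (f x) - φ' k (f x)) ^ 2 * C.Γ f f x := by
    intro n k
    have hs := hC.sub_mem (huW n) (huW k)
    have e1 : ∀ g ∈ C.W, C.Γ (u n - u k) g = (AEEqFun.comp (φ' n) (hφ' n) f
        - AEEqFun.comp (φ' k) (hφ' k) f) * C.Γ f g := by
      intro g hg
      rw [hC.Γ_sub_left (huW n) (huW k) hg, (hch n).2 g hg, (hch k).2 g hg, sub_mul]
    have e2 := e1 _ hs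
    have e3 : C.Γ f (u n - u k) = (AEEqFun.comp (φ' n) (hφ' n) f
        - AEEqFun.comp (φ' k) (hφ' k) f) * C.Γ f f := by
      rw [hC.symm _ hf _ hs, e1 f hf]
    rw [e3] at e2
    rw [e2]
    filter_upwards [mul_ae (AEEqFun.comp (φ' n) (hφ' n) f - AEEqFun.comp (φ' k) (hφ' k) f)
        ((AEEqFun.comp (φ' n) (hφ' n) f - AEEqFun.comp (φ' k) (hφ' k) f) * C.Γ f f),
      mul_ae (AEEqFun.comp (φ' n) (hφ' n) f - AEEqFun.comp (φ' k) (hφ' k) f) (C.Γ f f),
      sub_ae (AEEqFun.comp (φ' n) (hφ' n) f) (AEEqFun.comp (φ' k) (hφ' k) f),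
      AEEqFun.coeFn_comp _ (hφ' n) f, AEEqFun.coeFn_comp _ (hφ' k) f] with x b1 b2 b3 b4 b5
    rw [b1, b2, b3, b4, b5, Function.comp_apply, Function.comp_apply]
    ring
  have hΓ0 := hC.Γ_nonneg_ae hf
  have hint := int_of_mem (hC.mem1 f hf)
  -- measurability of `ψ (f x)`
  have hψm : AEStronglyMeasurable (fun x => ψ (f x)) m :=
    aestronglyMeasurable_of_tendsto_ae atTop
      (fun n => ((hφ' n).comp_aestronglyMeasurable f.aestronglyMeasurable))
      (Eventually.of_forall fun x => hl' (f x))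
  have hφm : ∀ n, AEStronglyMeasurable (fun x => φ' n (f x)) m := fun n =>
    (hφ' n).comp_aestronglyMeasurable f.aestronglyMeasurable
  have hdi : ∀ n, Integrable (fun x => (φ' n (f x) - ψ (f x)) ^ 2 * C.Γ f f x) m := by
    intro n
    refine (hint.const_mul ((2 * K) ^ 2)).mono' ((((hφm n).sub hψm).pow 2).mul
      (C.Γ f f).aestronglyMeasurable) ?_
    filter_upwards [hΓ0] with x b1
    rw [Real.norm_eq_abs, abs_mul, abs_of_nonneg b1, abs_of_nonneg (sq_nonneg _)]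
    refine mul_le_mul_of_nonneg_right ?_ b1
    rw [← sq_abs, ← sq_abs (2 * K)]
    refine pow_le_pow_left₀ (abs_nonneg _) ?_ 2
    have h1 := abs_sub (φ' n (f x)) (ψ (f x))
    have h2 := hK n (f x)
    have h3 := hbψ (f x)
    rw [abs_mul, abs_two, abs_of_nonneg hK0]
    linarith
  have lim1 : Tendsto (fun n => ∫ x, (φ' n (f x) - ψ (f x)) ^ 2 * C.Γ f f x ∂m) atTop (𝓝 0) := by
    have : Tendsto (fun n => ∫ x, (φ' n (f x) - ψ (f x)) ^ 2 * C.Γ f f x ∂m) atTop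
        (𝓝 (∫ _x, (0 : ℝ) ∂m)) := by
      refine tendsto_integral_of_dominated_convergence (fun x => (2 * K) ^ 2 * C.Γ f f x)
        (fun n => (hdi n).aestronglyMeasurable) (hint.const_mul _) (fun n => ?_) ?_
      · filter_upwards [hΓ0] with x b1
        rw [Real.norm_eq_abs, abs_mul, abs_of_nonneg b1, abs_of_nonneg (sq_nonneg _)]
        refine mul_le_mul_of_nonneg_right ?_ b1
        rw [← sq_abs, ← sq_abs (2 * K)]
        refine pow_le_pow_left₀ (abs_nonneg _) ?_ 2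
        have h1 := abs_sub (φ' n (f x)) (ψ (f x))
        have h2 := hK n (f x)
        have h3 := hbψ (f x)
        rw [abs_mul, abs_two, abs_of_nonneg hK0]
        linarith
      · refine Eventually.of_forall fun x => ?_
        have := (((hl' (f x)).sub_const (ψ (f x))).pow 2).mul_const (C.Γ f f x)
        simpa using this
    simpa using this
  -- the sequence is Cauchy
  have hcau : ∀ ε > 0, ∃ N, ∀ n ≥ N, ∀ k ≥ N, C.nrm2 (u n - u k) < ε := by
    intro ε hε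
    obtain ⟨N1, hN1⟩ := eventually_atTop.1 (lim2.eventually (gt_mem_nhds (show (0 : ℝ) < ε / 8 by
      positivity)))
    obtain ⟨N2, hN2⟩ := eventually_atTop.1 (lim1.eventually (gt_mem_nhds (show (0 : ℝ) < ε / 8 by
      positivity)))
    refine ⟨max N1 N2, fun n hn k hk => ?_⟩
    have a1 := hN1 n (le_trans (le_max_left _ _) hn)
    have a2 := hN1 k (le_trans (le_max_left _ _) hk)
    have a3 := hN2 n (le_trans (le_max_right _ _) hn)
    have a4 := hN2 k (le_trans (le_max_right _ _) hk)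
    have hun : ∀ n, MemLp (u n) 2 m := fun n => hC.memLp _ (huW n)
    have b1 : I ((u n - u k) ^ 2) ≤ 2 * I ((u n - F) ^ 2) + 2 * I ((u k - F) ^ 2) := by
      have h4 := I_sq_add_le (mem_sub (hun n) hF2) (mem_neg (mem_sub (hun k) hF2))
      rw [neg_sq] at h4
      have e : u n - F + -(u k - F) = u n - u k := by abel
      rwa [e] at h4
    have b2 : I (C.Γ (u n - u k) (u n - u k)) ≤
        2 * (∫ x, (φ' n (f x) - ψ (f x)) ^ 2 * C.Γ f f x ∂m)
          + 2 * (∫ x, (φ' k (f x) - ψ (f x)) ^ 2 * C.Γ f f x ∂m) := by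
      unfold I
      rw [← integral_const_mul, ← integral_const_mul, ← integral_add ((hdi n).const_mul 2)
        ((hdi k).const_mul 2)]
      refine integral_mono_ae (int_of_mem (hC.mem1 _ (hC.sub_mem (huW n) (huW k))))
        (((hdi n).const_mul 2).add ((hdi k).const_mul 2)) ?_
      filter_upwards [hΓd n k, hΓ0] with x c1 c2
      rw [c1]
      have : (φ' n (f x) - φ' k (f x)) ^ 2 ≤ 2 * (φ' n (f x) - ψ (f x)) ^ 2
          + 2 * (φ' k (f x) - ψ (f x)) ^ 2 := by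
        nlinarith [sq_nonneg (φ' n (f x) - ψ (f x) + (φ' k (f x) - ψ (f x)))]
      have h5 := mul_le_mul_of_nonneg_right this c2
      show (φ' n (f x) - φ' k (f x)) ^ 2 * C.Γ f f x ≤
        2 * ((φ' n (f x) - ψ (f x)) ^ 2 * C.Γ f f x) + 2 * ((φ' k (f x) - ψ (f x)) ^ 2 * C.Γ f f x)
      linarith
    unfold Calc.nrm2
    linarith
  obtain ⟨F', hF'W, hF'⟩ := hC.complete u huW hcau
  have hFF' : F' = F := hC.eq_of_tendsto_I_sq (fun n => hC.memLp _ (huW n)) (hC.memLp _ hF'W) hF2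
    (hC.tendsto_I_sq_of_nrm2 huW hF'W hF') lim2
  rw [hFF'] at hF' hF'W
  refine ⟨hF'W, fun g hg => ?_⟩
  -- convergence of `Γ (u n) g`
  have h1 := hC.tendsto_int_abs_Γ huW hF'W hg hF'
  have h2 : ∀ n, C.Γ (u n - F) g = C.Γ (u n) g - C.Γ F g := fun n =>
    hC.Γ_sub_left (huW n) hF'W hg
  simp only [h2] at h1
  obtain ⟨ns, hns, h3⟩ := exists_subseq_of_int_abs (u := fun n => C.Γ (u n) g) (f := C.Γ F g)
    (fun n => mem_sub (hC.Γ_mem1 (huW n) hg) (hC.Γ_mem1 hF'W hg)) h1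
  have h4 : ∀ᵐ x ∂m, ∀ n, C.Γ (u n) g x = φ' n (f x) * C.Γ f g x := by
    rw [ae_all_iff]
    intro n
    rw [(hch n).2 g hg]
    filter_upwards [mul_ae (AEEqFun.comp (φ' n) (hφ' n) f) (C.Γ f g),
      AEEqFun.coeFn_comp _ (hφ' n) f] with x b1 b2
    rw [b1, b2, Function.comp_apply]
  filter_upwards [h3, h4] with x c1 c2
  simp only [c2] at c1
  exact tendsto_nhds_unique c1 (((hl' (f x)).comp hns.tendsto_atTop).mul_const _)

/-- chain rule for a Lipschitz function `Ψ` whose derivative `ψ` (off a countable set) is a bounded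
pointwise limit of continuous functions -/
theorem chain_baire (hC : IsDir C) {f : M →ₘ[m] ℝ} (hf : f ∈ C.W) {Ψ ψ : ℝ → ℝ}
    (hΨ : Continuous Ψ) (h0 : Ψ 0 = 0) {s : Set ℝ} (hs : s.Countable)
    (hd : ∀ t, t ∉ s → HasDerivAt Ψ (ψ t) t) {ψn : ℕ → ℝ → ℝ} (hψn : ∀ n, Continuous (ψn n))
    {K : ℝ} (hK : ∀ n t, |ψn n t| ≤ K) (hl : ∀ t, Tendsto (fun n => ψn n t) atTop (𝓝 (ψ t))) :
    AEEqFun.comp Ψ hΨ f ∈ C.W ∧
      ∀ g ∈ C.W, ∀ᵐ x ∂m, C.Γ (AEEqFun.comp Ψ hΨ f) g x = ψ (f x) * C.Γ f g x := by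
  have hψm : AEStronglyMeasurable ψ (volume : Measure ℝ) :=
    aestronglyMeasurable_of_tendsto_ae atTop (fun n => (hψn n).aestronglyMeasurable)
      (Eventually.of_forall fun x => hl x)
  have hψb : ∀ t, |ψ t| ≤ K := fun t => le_of_tendsto' ((hl t).abs) fun n => hK n t
  have hint : ∀ a b : ℝ, IntervalIntegrable ψ volume a b := by
    intro a b
    refine (intervalIntegrable_const (c := K)).mono_fun hψm.restrict ?_
    refine Eventually.of_forall fun t => ?_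
    show ‖ψ t‖ ≤ ‖K‖
    rw [Real.norm_eq_abs, Real.norm_eq_abs]
    exact (hψb t).trans (le_abs_self K)
  have hΨi : ∀ t, ∫ r in (0 : ℝ)..t, ψ r = Ψ t := by
    intro t
    have := integral_eq_of_hasDerivAt_off_countable Ψ ψ (a := 0) (b := t) hs
      hΨ.continuousOn (fun x hx => hd x hx.2) (hint 0 t)
    rw [this, h0, sub_zero]
  refine hC.chain_lim hf (φ := fun n t => ∫ r in (0 : ℝ)..t, ψn n r) (φ' := ψn) hψn
    (fun n t => ?_) (fun n => by simp) hK hΨ (fun t => ?_) hl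
  · exact intervalIntegral.integral_hasDerivAt_right ((hψn n).intervalIntegrable _ _)
      ((hψn n).stronglyMeasurableAtFilter _ _) (hψn n).continuousAt
  · rw [← hΨi t]
    refine intervalIntegral.tendsto_integral_filter_of_dominated_convergence (fun _ => K)
      (Eventually.of_forall fun n => (hψn n).aestronglyMeasurable.restrict)
      (Eventually.of_forall fun n => Eventually.of_forall fun x _ => ?_)
      intervalIntegrable_const (Eventually.of_forall fun x _ => hl x)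
    rw [Real.norm_eq_abs]; exact hK n x

end IsDir

/-- a continuous approximation of the indicator of `(l, ∞)` -/
noncomputable def rmp (l : ℝ) (n : ℕ) (t : ℝ) : ℝ := max 0 (min 1 ((n : ℝ) * (t - l)))

/-- a continuous approximation of the indicator of `[l, ∞)` -/
noncomputable def rmq (l : ℝ) (n : ℕ) (t : ℝ) : ℝ := max 0 (min 1 (1 + (n : ℝ) * (t - l)))

theorem rmp_cont (l : ℝ) (n : ℕ) : Continuous (rmp l n) := by unfold rmp; fun_prop

theorem rmq_cont (l : ℝ) (n : ℕ) : Continuous (rmq l n) := by unfold rmq; fun_prop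

theorem rmp_abs (l : ℝ) (n : ℕ) (t : ℝ) : |rmp l n t| ≤ 1 := by
  unfold rmp
  rw [abs_of_nonneg (le_max_left _ _)]
  exact max_le zero_le_one (min_le_left _ _)

theorem rmq_abs (l : ℝ) (n : ℕ) (t : ℝ) : |rmq l n t| ≤ 1 := by
  unfold rmq
  rw [abs_of_nonneg (le_max_left _ _)]
  exact max_le zero_le_one (min_le_left _ _)

theorem tendsto_natmul {r : ℝ} (hr : 0 < r) : Tendsto (fun n : ℕ => (n : ℝ) * r) atTop atTop :=
  tendsto_natCast_atTop_atTop.atTop_mul_const hr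

theorem rmp_lim (l t : ℝ) : Tendsto (fun n => rmp l n t) atTop (𝓝 (if l < t then 1 else 0)) := by
  by_cases h : l < t
  · rw [if_pos h]
    refine tendsto_const_nhds.congr' ?_
    filter_upwards [(tendsto_natmul (sub_pos.2 h)).eventually_ge_atTop 1] with n hn
    unfold rmp
    rw [min_eq_left hn, max_eq_right zero_le_one]
  · rw [if_neg h]
    refine tendsto_const_nhds.congr fun n => ?_
    unfold rmp
    have h1 : (n : ℝ) * (t - l) ≤ 0 := mul_nonpos_of_nonneg_of_nonpos (Nat.cast_nonneg n)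
      (by linarith [not_lt.1 h])
    rw [min_eq_right (h1.trans zero_le_one), max_eq_left h1]

theorem rmq_lim (l t : ℝ) : Tendsto (fun n => rmq l n t) atTop (𝓝 (if l ≤ t then 1 else 0)) := by
  by_cases h : l ≤ t
  · rw [if_pos h]
    refine tendsto_const_nhds.congr fun n => ?_
    unfold rmq
    have h1 : 0 ≤ (n : ℝ) * (t - l) := mul_nonneg (Nat.cast_nonneg n) (by linarith)
    rw [min_eq_left (by linarith), max_eq_right zero_le_one]
  · rw [if_neg h]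
    refine tendsto_const_nhds.congr' ?_
    filter_upwards [(tendsto_natmul (sub_pos.2 (not_le.1 h))).eventually_ge_atTop 1] with n hn
    unfold rmq
    have h1 : 1 + (n : ℝ) * (t - l) ≤ 0 := by linarith
    rw [min_eq_right (h1.trans zero_le_one), max_eq_left h1]

theorem sup_ae (f g : M →ₘ[m] ℝ) : ⇑(f ⊔ g) =ᵐ[m] fun x => max (f x) (g x) :=
  AEEqFun.coeFn_sup f g

theorem inf_ae (f g : M →ₘ[m] ℝ) : ⇑(f ⊓ g) =ᵐ[m] fun x => min (f x) (g x) :=
  AEEqFun.coeFn_inf f g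

theorem smul_one_ae (c : ℝ) : ⇑(c • (1 : M →ₘ[m] ℝ)) =ᵐ[m] fun _ => c := by
  filter_upwards [smul_ae (1 : M →ₘ[m] ℝ) c, one_ae (M := M) (m := m)] with x b1 b2
  rw [b1, b2, mul_one]

theorem sub_const_ae (f : M →ₘ[m] ℝ) (c : ℝ) :
    ⇑(f - c • (1 : M →ₘ[m] ℝ)) =ᵐ[m] fun x => f x - c := by
  filter_upwards [sub_ae f (c • (1 : M →ₘ[m] ℝ)), smul_one_ae (M := M) (m := m) c] with x b1 b2
  rw [b1, b2]

/-- `(f - l)₊` -/
theorem cut_ae (f : M →ₘ[m] ℝ) (l : ℝ) :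
    ⇑((f - l • (1 : M →ₘ[m] ℝ)) ⊔ 0) =ᵐ[m] fun x => max (f x - l) 0 := by
  filter_upwards [sup_ae (f - l • (1 : M →ₘ[m] ℝ)) 0, sub_const_ae f l,
    zero_ae (M := M) (m := m)] with x b1 b2 b3
  rw [b1, b2, b3]

theorem sup_eq_add_pos (f g : M →ₘ[m] ℝ) : f ⊔ g = g + ((f - g) ⊔ 0) := by
  rw [eq_iff_ae]
  filter_upwards [sup_ae f g, add_ae g ((f - g) ⊔ 0), sup_ae (f - g) 0, sub_ae f g,
    zero_ae (M := M) (m := m)] with x b1 b2 b3 b4 b5
  rw [b1, b2, b3, b4, b5]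
  rcases le_total (f x) (g x) with h | h
  · rw [max_eq_right h, max_eq_right (by linarith)]; ring
  · rw [max_eq_left h, max_eq_left (by linarith)]; ring

theorem inf_eq_sub_pos (f g : M →ₘ[m] ℝ) : f ⊓ g = f - ((f - g) ⊔ 0) := by
  rw [eq_iff_ae]
  filter_upwards [inf_ae f g, sub_ae f ((f - g) ⊔ 0), sup_ae (f - g) 0, sub_ae f g,
    zero_ae (M := M) (m := m)] with x b1 b2 b3 b4 b5
  rw [b1, b2, b3, b4, b5]
  rcases le_total (f x) (g x) with h | h
  · rw [min_eq_left h, max_eq_right (by linarith)]; ring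
  · rw [min_eq_right h, max_eq_left (by linarith)]; ring

namespace IsDir

variable (hC : IsDir C) {f g h a b : M →ₘ[m] ℝ}
include hC

/-- the general truncation `max (f - l) 0 - max (-l) 0` -/
theorem cut_gen (hf : f ∈ C.W) (l : ℝ) : ∃ w ∈ C.W,
    (∀ᵐ x ∂m, w x = max (f x - l) 0 - max (-l) 0) ∧
    ∀ g ∈ C.W, ∀ᵐ x ∂m, C.Γ w g x = (if l < f x then 1 else 0) * C.Γ f g x := by
  have hc : Continuous fun t : ℝ => max (t - l) 0 - max (-l) 0 := by fun_prop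
  have key := hC.chain_baire hf (Ψ := fun t => max (t - l) 0 - max (-l) 0)
    (ψ := fun t => if l < t then 1 else 0) hc (by simp) (s := {l}) (Set.countable_singleton l)
    (fun t ht => ?_) (rmp_cont l) (rmp_abs l) (rmp_lim l)
  · refine ⟨_, key.1, ?_, key.2⟩
    filter_upwards [AEEqFun.coeFn_comp _ hc f] with x b1
    rw [b1, Function.comp_apply]
  · have ht' : t ≠ l := by simpa using ht
    rcases lt_or_gt_of_ne ht' with h | h
    · rw [if_neg (not_lt.2 h.le)]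
      have : (fun t : ℝ => max (t - l) 0 - max (-l) 0) =ᶠ[𝓝 t] fun _ => 0 - max (-l) 0 := by
        filter_upwards [gt_mem_nhds h] with r hr
        rw [max_eq_right (by linarith)]
      exact (hasDerivAt_const t _).congr_of_eventuallyEq this
    · rw [if_pos h]
      have : (fun t : ℝ => max (t - l) 0 - max (-l) 0) =ᶠ[𝓝 t] fun r => (r - l) - max (-l) 0 := by
        filter_upwards [lt_mem_nhds h] with r hr
        rw [max_eq_left (by linarith)]
      exact (((hasDerivAt_id t).sub_const l).sub_const _).congr_of_eventuallyEq this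

/-- `(f - l)₊ ∈ W` for `l ≥ 0`, with its gradient -/
theorem cut_mem (hf : f ∈ C.W) {l : ℝ} (hl : 0 ≤ l) :
    (f - l • (1 : M →ₘ[m] ℝ)) ⊔ 0 ∈ C.W ∧ ∀ g ∈ C.W, ∀ᵐ x ∂m,
      C.Γ ((f - l • (1 : M →ₘ[m] ℝ)) ⊔ 0) g x = (if l < f x then 1 else 0) * C.Γ f g x := by
  obtain ⟨w, hw, hw1, hw2⟩ := hC.cut_gen hf l
  have e : (f - l • (1 : M →ₘ[m] ℝ)) ⊔ 0 = w := by
    rw [eq_iff_ae]
    filter_upwards [hw1, cut_ae f l] with x b1 b2
    rw [b1, b2, max_eq_right (show -l ≤ 0 by linarith), sub_zero]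
  rw [e]
  exact ⟨hw, hw2⟩

theorem pos_mem (hf : f ∈ C.W) : f ⊔ 0 ∈ C.W := by
  have := (hC.cut_mem hf le_rfl).1
  rwa [zero_smul, sub_zero] at this

theorem Γ_pos (hf : f ∈ C.W) (hg : g ∈ C.W) :
    ∀ᵐ x ∂m, C.Γ (f ⊔ 0) g x = (if 0 < f x then 1 else 0) * C.Γ f g x := by
  have := (hC.cut_mem hf le_rfl).2 g hg
  rwa [zero_smul, sub_zero] at this

/-- locality on level sets -/
theorem Γ_level (hf : f ∈ C.W) (hg : g ∈ C.W) (c : ℝ) :
    ∀ᵐ x ∂m, f x = c → C.Γ f g x = 0 := by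
  obtain ⟨w, hw, hw1, hw2⟩ := hC.cut_gen hf c
  have hc : Continuous fun t : ℝ => max (t - c) 0 - max (-c) 0 := by fun_prop
  have key := hC.chain_baire hf (Ψ := fun t => max (t - c) 0 - max (-c) 0)
    (ψ := fun t => if c ≤ t then 1 else 0) hc (by simp) (s := {c}) (Set.countable_singleton c)
    (fun t ht => ?_) (rmq_cont c) (rmq_abs c) (rmq_lim c)
  · have e : AEEqFun.comp (fun t : ℝ => max (t - c) 0 - max (-c) 0) hc f = w := by
      rw [eq_iff_ae]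
      filter_upwards [AEEqFun.coeFn_comp _ hc f, hw1] with x b1 b2
      rw [b1, b2, Function.comp_apply]
    rw [e] at key
    filter_upwards [key.2 g hg, hw2 g hg] with x b1 b2 hx
    rw [b1] at b2
    rw [if_pos hx.ge, if_neg (by rw [hx]; exact lt_irrefl c), one_mul, zero_mul] at b2
    exact b2
  · have ht' : t ≠ c := by simpa using ht
    rcases lt_or_gt_of_ne ht' with h | h
    · rw [if_neg (not_le.2 h)]
      have : (fun t : ℝ => max (t - c) 0 - max (-c) 0) =ᶠ[𝓝 t] fun _ => 0 - max (-c) 0 := by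
        filter_upwards [gt_mem_nhds h] with r hr
        rw [max_eq_right (by linarith)]
      exact (hasDerivAt_const t _).congr_of_eventuallyEq this
    · rw [if_pos h.le]
      have : (fun t : ℝ => max (t - c) 0 - max (-c) 0) =ᶠ[𝓝 t] fun r => (r - c) - max (-c) 0 := by
        filter_upwards [lt_mem_nhds h] with r hr
        rw [max_eq_left (by linarith)]
      exact (((hasDerivAt_id t).sub_const c).sub_const _).congr_of_eventuallyEq this

/-- locality: the gradients of `f` and `g` agree a.e. on `{f - g = c}` -/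
theorem Γ_eq_on (hf : f ∈ C.W) (hg : g ∈ C.W) (hh : h ∈ C.W) (c : ℝ) :
    ∀ᵐ x ∂m, f x - g x = c → C.Γ f h x = C.Γ g h x := by
  filter_upwards [hC.Γ_level (hC.sub_mem hf hg) hh c, sub_ae f g,
    eq_iff_ae.1 (hC.Γ_sub_left hf hg hh), sub_ae (C.Γ f h) (C.Γ g h)] with x b1 b2 b3 b4 hx
  have := b1 (by rw [b2]; exact hx)
  rw [b3, b4] at this
  linarith

theorem sup_mem (hf : f ∈ C.W) (hg : g ∈ C.W) : f ⊔ g ∈ C.W := by
  rw [sup_eq_add_pos]
  exact hC.add_mem _ hg _ (hC.pos_mem (hC.sub_mem hf hg))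

theorem inf_mem (hf : f ∈ C.W) (hg : g ∈ C.W) : f ⊓ g ∈ C.W := by
  rw [inf_eq_sub_pos]
  exact hC.sub_mem hf (hC.pos_mem (hC.sub_mem hf hg))

theorem Γ_sup (hf : f ∈ C.W) (hg : g ∈ C.W) (hh : h ∈ C.W) :
    ∀ᵐ x ∂m, C.Γ (f ⊔ g) h x = if g x < f x then C.Γ f h x else C.Γ g h x := by
  have hs := hC.sub_mem hf hg
  rw [sup_eq_add_pos, hC.add_left _ hg _ (hC.pos_mem hs) _ hh]
  filter_upwards [add_ae (C.Γ g h) (C.Γ ((f - g) ⊔ 0) h), hC.Γ_pos hs hh, sub_ae f g,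
    eq_iff_ae.1 (hC.Γ_sub_left hf hg hh), sub_ae (C.Γ f h) (C.Γ g h)] with x b1 b2 b3 b4 b5
  rw [b1, b2, b3, b4, b5]
  by_cases hx : g x < f x
  · rw [if_pos hx, if_pos (by linarith)]; ring
  · rw [if_neg hx, if_neg (by linarith)]; ring

theorem Γ_inf (hf : f ∈ C.W) (hg : g ∈ C.W) (hh : h ∈ C.W) :
    ∀ᵐ x ∂m, C.Γ (f ⊓ g) h x = if g x < f x then C.Γ g h x else C.Γ f h x := by
  have hs := hC.sub_mem hf hg
  rw [inf_eq_sub_pos, hC.Γ_sub_left hf (hC.pos_mem hs) hh]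
  filter_upwards [sub_ae (C.Γ f h) (C.Γ ((f - g) ⊔ 0) h), hC.Γ_pos hs hh, sub_ae f g,
    eq_iff_ae.1 (hC.Γ_sub_left hf hg hh), sub_ae (C.Γ f h) (C.Γ g h)] with x b1 b2 b3 b4 b5
  rw [b1, b2, b3, b4, b5]
  by_cases hx : g x < f x
  · rw [if_pos hx, if_pos (by linarith)]; ring
  · rw [if_neg hx, if_neg (by linarith)]; ring

/-- `Γ(w,w)` for `w = (f - l)₊` -/
theorem Γ_cut_self (hf : f ∈ C.W) {l : ℝ} (hl : 0 ≤ l) :
    ∀ᵐ x ∂m, C.Γ ((f - l • (1 : M →ₘ[m] ℝ)) ⊔ 0) ((f - l • (1 : M →ₘ[m] ℝ)) ⊔ 0) x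
      = (if l < f x then 1 else 0) * C.Γ f f x := by
  obtain ⟨h1, h2⟩ := hC.cut_mem hf hl
  have h3 := h2 f hf
  rw [hC.symm _ h1 _ hf] at h3
  filter_upwards [h2 _ h1, h3] with x b1 b2
  rw [b1, b2]
  split_ifs <;> simp

theorem Γ_cut_eq (hf : f ∈ C.W) {l : ℝ} (hl : 0 ≤ l) :
    C.Γ f ((f - l • (1 : M →ₘ[m] ℝ)) ⊔ 0)
      = C.Γ ((f - l • (1 : M →ₘ[m] ℝ)) ⊔ 0) ((f - l • (1 : M →ₘ[m] ℝ)) ⊔ 0) := by
  obtain ⟨h1, h2⟩ := hC.cut_mem hf hl
  rw [eq_iff_ae, hC.symm _ hf _ h1]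
  filter_upwards [hC.Γ_cut_self hf hl, h2 f hf] with x b1 b2
  rw [b1, b2]

theorem Γ_pos_eq (hf : f ∈ C.W) : C.Γ f (f ⊔ 0) = C.Γ (f ⊔ 0) (f ⊔ 0) := by
  have := hC.Γ_cut_eq hf le_rfl
  rwa [zero_smul, sub_zero] at this

theorem I_Γ_cut (hf : f ∈ C.W) {l : ℝ} (hl : 0 ≤ l) :
    I (C.Γ f ((f - l • (1 : M →ₘ[m] ℝ)) ⊔ 0))
      = I (C.Γ ((f - l • (1 : M →ₘ[m] ℝ)) ⊔ 0) ((f - l • (1 : M →ₘ[m] ℝ)) ⊔ 0)) := by
  rw [hC.Γ_cut_eq hf hl]

/-- minimum with a nonnegative constant -/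
theorem inf_const_mem (hf : f ∈ C.W) {l : ℝ} (hl : 0 ≤ l) :
    f ⊓ (l • (1 : M →ₘ[m] ℝ)) ∈ C.W ∧ ∀ g ∈ C.W, ∀ᵐ x ∂m,
      C.Γ (f ⊓ (l • (1 : M →ₘ[m] ℝ))) g x = (if f x < l then 1 else 0) * C.Γ f g x := by
  obtain ⟨h1, h2⟩ := hC.cut_mem hf hl
  rw [inf_eq_sub_pos]
  refine ⟨hC.sub_mem hf h1, fun g hg => ?_⟩
  rw [hC.Γ_sub_left hf h1 hg]
  filter_upwards [sub_ae (C.Γ f g) (C.Γ ((f - l • (1 : M →ₘ[m] ℝ)) ⊔ 0) g), h2 g hg,
    hC.Γ_level hf hg l] with x b1 b2 b3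
  rw [b1, b2]
  rcases lt_trichotomy (f x) l with h | h | h
  · rw [if_pos h, if_neg (not_lt.2 h.le)]; ring
  · rw [b3 h]; simp
  · rw [if_pos h, if_neg (not_lt.2 h.le)]; ring

/-- maximum with a nonpositive constant -/
theorem sup_const_mem (hf : f ∈ C.W) {l : ℝ} (hl : l ≤ 0) :
    f ⊔ (l • (1 : M →ₘ[m] ℝ)) ∈ C.W ∧ ∀ g ∈ C.W, ∀ᵐ x ∂m,
      C.Γ (f ⊔ (l • (1 : M →ₘ[m] ℝ))) g x = (if l < f x then 1 else 0) * C.Γ f g x := by
  have hn := hC.neg_mem hf
  obtain ⟨h1, h2⟩ := hC.inf_const_mem hn (neg_nonneg.2 hl)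
  have e : f ⊔ (l • (1 : M →ₘ[m] ℝ)) = -(-f ⊓ (-l • (1 : M →ₘ[m] ℝ))) := by
    rw [eq_iff_ae]
    filter_upwards [sup_ae f (l • (1 : M →ₘ[m] ℝ)), neg_ae (-f ⊓ (-l • (1 : M →ₘ[m] ℝ))),
      inf_ae (-f) (-l • (1 : M →ₘ[m] ℝ)), neg_ae f, smul_one_ae (M := M) (m := m) l,
      smul_one_ae (M := M) (m := m) (-l)] with x b1 b2 b3 b4 b5 b6
    rw [b1, b2, b3, b4, b5, b6, min_neg_neg, neg_neg]
  rw [e]
  refine ⟨hC.neg_mem h1, fun g hg => ?_⟩
  rw [hC.Γ_neg_left h1 hg]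
  filter_upwards [neg_ae (C.Γ (-f ⊓ (-l • (1 : M →ₘ[m] ℝ))) g), h2 g hg, neg_ae f,
    eq_iff_ae.1 (hC.Γ_neg_left hf hg), neg_ae (C.Γ f g)] with x b1 b2 b3 b4 b5
  rw [b1, b2, b3, b4, b5]
  by_cases h : l < f x
  · rw [if_pos h, if_pos (by linarith)]; ring
  · rw [if_neg h, if_neg (by linarith)]; ring

/-- clamping between `a ≤ 0` and `b ≥ 0` -/
theorem clamp_mem (hf : f ∈ C.W) {a b : ℝ} (ha : a ≤ 0) (hb : 0 ≤ b) :
    (f ⊓ (b • (1 : M →ₘ[m] ℝ))) ⊔ (a • (1 : M →ₘ[m] ℝ)) ∈ C.A ∧ ∀ g ∈ C.W, ∀ᵐ x ∂m,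
      C.Γ ((f ⊓ (b • (1 : M →ₘ[m] ℝ))) ⊔ (a • (1 : M →ₘ[m] ℝ))) g x
        = (if a < f x ∧ f x < b then 1 else 0) * C.Γ f g x := by
  obtain ⟨h1, h2⟩ := hC.inf_const_mem hf hb
  obtain ⟨h3, h4⟩ := hC.sup_const_mem h1 ha
  have e : ∀ᵐ x ∂m, (f ⊓ (b • (1 : M →ₘ[m] ℝ))) x = min (f x) b := by
    filter_upwards [inf_ae f (b • (1 : M →ₘ[m] ℝ)), smul_one_ae (M := M) (m := m) b] with x b1 b2
    rw [b1, b2]
  refine ⟨⟨h3, mem_top_iff.2 ⟨max |a| |b|, ?_⟩⟩, fun g hg => ?_⟩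
  · filter_upwards [sup_ae (f ⊓ (b • (1 : M →ₘ[m] ℝ))) (a • (1 : M →ₘ[m] ℝ)), e,
      smul_one_ae (M := M) (m := m) a] with x b1 b2 b3
    rw [b1, b2, b3, abs_le]
    constructor
    · have := le_max_right (min (f x) b) a
      have h5 := neg_abs_le a
      have h6 := le_max_left |a| |b|
      linarith
    · refine max_le ((min_le_right _ _).trans ((le_abs_self b).trans (le_max_right _ _)))
        ((le_abs_self a).trans (le_max_left _ _))
  · filter_upwards [h2 g hg, h4 g hg, e] with x b1 b2 b3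
    rw [b2, b1, b3]
    by_cases c1 : a < f x
    · by_cases c2 : f x < b
      · have c3 : a < f x ∧ f x < b := ⟨c1, c2⟩
        rw [min_eq_left c2.le, if_pos c1, if_pos c2, if_pos c3]; ring
      · have c3 : ¬ (a < f x ∧ f x < b) := fun h => c2 h.2
        rw [if_neg c2, if_neg c3]; ring
    · have c2 : ¬ (a < min (f x) b) := fun h => c1 (h.trans_le (min_le_left _ _))
      have c3 : ¬ (a < f x ∧ f x < b) := fun h => c1 h.1
      rw [if_neg c2, if_neg c3]; ring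

theorem abs_mem (hf : f ∈ C.W) : |f| ∈ C.W := hC.sup_mem hf (hC.neg_mem hf)

theorem Γ_abs_fun (hf : f ∈ C.W) (hg : g ∈ C.W) :
    ∀ᵐ x ∂m, C.Γ |f| g x = SignType.sign (f x) * C.Γ f g x := by
  have h1 := hC.Γ_sup hf (hC.neg_mem hf) hg
  filter_upwards [h1, neg_ae f, eq_iff_ae.1 (hC.Γ_neg_left hf hg), neg_ae (C.Γ f g),
    hC.Γ_level hf hg 0] with x b1 b2 b3 b4 b5
  have e : C.Γ |f| g x = C.Γ (f ⊔ -f) g x := rfl
  rw [e, b1, b2, b3, b4]
  rcases lt_trichotomy (f x) 0 with h | h | h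
  · rw [if_neg (by linarith), sign_neg h]; simp
  · rw [b5 h]; simp
  · rw [if_pos (by linarith), sign_pos h]; simp

/-- strong locality of positive and negative part -/
theorem Γ_pos_neg (hf : f ∈ C.W) : C.Γ (f ⊔ 0) (-f ⊔ 0) = 0 := by
  have hn := hC.neg_mem hf
  have h1 := hC.Γ_pos hf (hC.pos_mem hn)
  have h2 := hC.Γ_pos hn hf
  rw [hC.symm _ (hC.pos_mem hn) _ hf] at h2
  rw [eq_iff_ae]
  filter_upwards [h1, h2, neg_ae f, zero_ae (M := M) (m := m)] with x b1 b2 b3 b4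
  rw [b1, b2, b3, b4]
  by_cases c : 0 < f x
  · rw [if_neg (by linarith : ¬ (0 < -f x))]; simp
  · rw [if_neg c]; simp

/-- the parallelogram type identity for `⊔`, `⊓` -/
theorem Γ_sup_inf (hf : f ∈ C.W) (hg : g ∈ C.W) :
    ∀ᵐ x ∂m, C.Γ (f ⊔ g) (f ⊔ g) x + C.Γ (f ⊓ g) (f ⊓ g) x = C.Γ f f x + C.Γ g g x := by
  have hs := hC.sup_mem hf hg
  have hi := hC.inf_mem hf hg
  have h1 := hC.Γ_sup hf hg hs
  have h2 := hC.Γ_sup hf hg hf
  have h3 := hC.Γ_sup hf hg hg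
  have k1 := hC.Γ_inf hf hg hi
  have k2 := hC.Γ_inf hf hg hf
  have k3 := hC.Γ_inf hf hg hg
  rw [hC.symm _ hs _ hf] at h2
  rw [hC.symm _ hs _ hg] at h3
  rw [hC.symm _ hi _ hf] at k2
  rw [hC.symm _ hi _ hg] at k3
  filter_upwards [h1, h2, h3, k1, k2, k3] with x b1 b2 b3 c1 c2 c3
  rw [b1, b2, b3, c1, c2, c3]
  by_cases h : g x < f x
  · simp only [if_pos h]
  · simp only [if_neg h]; ring

end IsDir

end Vale.Agent.P233
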